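import Vale.Agent.P202.All2

open IsLocalRing Filter Topology

namespace Vale.Agent.Results.P202.EqCharAll

universe u

theorem result (R S : Type u) [CommRing R] [IsLocalRing R] [IsNoetherianRing R] [CommRing S]
    [IsLocalRing S] [IsNoetherianRing S] (f : R →+* S) [IsLocalHom f] (hf : f.Flat)
    (hK : ∃ K : Subring R, IsField K) (dR dS : ℕ)
    (hR : ringKrullDim R = dR) (hS : ringKrullDim S = dS) : ∃ eR eS : ℝ,
      Tendsto (fun N : ℕ => (dR.factorial : ℝ) *
        (Module.length R (R ⧸ maximalIdeal R ^ N)).toNat / (N : ℝ) ^ dR) atTop (𝓝 eR) ∧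
      Tendsto (fun N : ℕ => (dS.factorial : ℝ) *
        (Module.length S (S ⧸ maximalIdeal S ^ N)).toNat / (N : ℝ) ^ dS) atTop (𝓝 eS) ∧
      eR ≤ eS :=
  open Vale.Agent.P202 in
  main2 normI' R S f hf (hK.elim hasPF_of_subring) dR dS hR hS

end Vale.Agent.Results.P202.EqCharAll
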